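import Vale.Agent.P088.R2.H404.DM.Lop
import Vale.Agent.P088.R2.H380.DM.Defs
import Vale.Agent.P088.R2.H238.DM.Spec

/-!
# P088, Dirichlet problem: regularity up to the flat boundary for local data
-/

open MeasureTheory Set Filter Topology
open scoped ContDiff ENNReal

noncomputable section

namespace Vale.Agent.P088.DM.H404

open Vale.Agent.P088.EYM Vale.Agent.P088.EYM.ES Vale.Agent.P088.DM
open Vale.Agent.P088.DC (ee dd Uh Hb Cf Ell Cl)

variable {n N : ℕ} [NeZero n]

set_option linter.unusedSectionVars false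

theorem norm_lt_of_coord {r : ℝ} (hr : 0 < r) {y : E n} (h : ∀ i, |y i| ≤ r / (2 * n)) :
    ‖y‖ < r := by
  have hn1 : (1 : ℝ) ≤ n := by exact_mod_cast Nat.one_le_iff_ne_zero.2 (NeZero.ne n)
  have hn : (0 : ℝ) < n := by linarith
  have h1 : ‖y‖ ^ 2 ≤ (r / 2) ^ 2 := by
    rw [EuclideanSpace.real_norm_sq_eq]
    calc ∑ i, y i ^ 2 ≤ ∑ _i : Fin n, (r / (2 * n)) ^ 2 := Finset.sum_le_sum fun i _ => by
            rw [← sq_abs]; exact pow_le_pow_left₀ (abs_nonneg _) (h i) 2
      _ = (r / 2) ^ 2 / n := by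
        rw [Finset.sum_const, Finset.card_univ, Fintype.card_fin, nsmul_eq_mul]
        field_simp
      _ ≤ (r / 2) ^ 2 := div_le_self (sq_nonneg _) hn1
  have h2 := abs_le_of_sq_le_sq h1 (by positivity)
  rw [abs_norm] at h2
  linarith

theorem mem_Bx {z : E n} (hz : z 0 = 0) {r : ℝ} {y : E n} (h0 : 0 ≤ y 0)
    (h : ∀ i, |y i| < r) : z + y ∈ Bx z r := by
  refine ⟨fun i => ?_, ?_⟩
  · rw [PiLp.add_apply, add_sub_cancel_left]
    exact h i
  · rw [PiLp.add_apply, hz, zero_add]
    exact h0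

theorem mem_Bo {z : E n} (hz : z 0 = 0) {r : ℝ} {y : E n} (h0 : 0 < y 0)
    (h : ∀ i, |y i| < r) : z + y ∈ Bo z r := by
  refine ⟨fun i => ?_, ?_⟩
  · rw [PiLp.add_apply, add_sub_cancel_left]
    exact h i
  · rw [PiLp.add_apply, hz, zero_add]
    exact h0

theorem Bx_relOpen (z : E n) (r : ℝ) : RelOpen (Bx z r) := by
  refine ⟨⋂ i, {x : E n | |x i - z i| < r}, isOpen_iInter_of_finite fun i =>
    isOpen_lt ((continuous_coord i).sub continuous_const).abs continuous_const, ?_⟩
  ext x
  simp [Bx, Hs]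

theorem Bo_open (z : E n) (r : ℝ) : IsOpen (Bo z r) := by
  have h : Bo z r = (⋂ i, {x : E n | |x i - z i| < r}) ∩ {x : E n | 0 < x 0} := by
    ext x
    simp [Bo]
  rw [h]
  exact (isOpen_iInter_of_finite fun i =>
    isOpen_lt ((continuous_coord i).sub continuous_const).abs continuous_const).inter
    (isOpen_lt continuous_const (continuous_coord 0))

theorem Bo_sub_Bx (z : E n) (r : ℝ) : Bo z r ⊆ Bx z r := fun _ hx => ⟨hx.1, hx.2.le⟩

theorem isOpen_U (r : ℝ) : IsOpen (Uh (n := n) r) := by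
  have h : Uh (n := n) r = {y : E n | 0 < y 0} ∩ ⋂ i, {y : E n | |y i| < r} := by
    ext y
    simp [Uh]
  rw [h]
  refine (isOpen_lt continuous_const (continuous_coord 0)).inter (isOpen_iInter_of_finite fun i => ?_)
  exact isOpen_lt (continuous_coord i).abs continuous_const

theorem dd_comp {O : Set (E n)} (hO : IsOpen O) {c : E n → Fib N} (l : Fib N →L[ℝ] ℝ)
    (hc : ContDiffOn ℝ 1 c O) {z y : E n} (hy : z + y ∈ O) (i : Fin n) :
    dd i (fun y => l (c (z + y))) y = l (fderiv ℝ c (z + y) (ev i)) := by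
  have hd : DifferentiableAt ℝ c (z + y) :=
    (hc.contDiffAt (hO.mem_nhds hy)).differentiableAt one_ne_zero
  have h1 : HasFDerivAt (fun y => z + y) (ContinuousLinearMap.id ℝ (E n)) y :=
    (hasFDerivAt_id y).const_add z
  have h2 : HasFDerivAt (fun y => c (z + y))
      ((fderiv ℝ c (z + y)).comp (ContinuousLinearMap.id ℝ (E n))) y := hd.hasFDerivAt.comp y h1
  have h3 : HasFDerivAt (fun y => l (c (z + y)))
      (l.comp ((fderiv ℝ c (z + y)).comp (ContinuousLinearMap.id ℝ (E n)))) y :=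
    l.hasFDerivAt.comp y h2
  unfold dd
  rw [h3.fderiv]
  rfl

theorem dd_dd_comp {O : Set (E n)} (hO : IsOpen O) {c : E n → Fib N} (l : Fib N →L[ℝ] ℝ)
    (hc : ContDiffOn ℝ ∞ c O) {z y : E n} (hy : z + y ∈ O) (i j : Fin n) :
    dd i (dd j (fun y => l (c (z + y)))) y =
      l (fderiv ℝ (fun x => fderiv ℝ c x (ev j)) (z + y) (ev i)) := by
  have hc' : ContDiffOn ℝ 1 (fun x => fderiv ℝ c x (ev j)) O :=
    ((hc.fderiv_of_isOpen hO (m := ∞) (by simp)).clm_apply contDiffOn_const).of_le
      (by exact_mod_cast le_top)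
  have hev : dd j (fun y => l (c (z + y))) =ᶠ[𝓝 y]
      fun y => l ((fun x => fderiv ℝ c x (ev j)) (z + y)) := by
    have : ∀ᶠ y' in 𝓝 y, z + y' ∈ O :=
      (continuous_const.add continuous_id).continuousAt.eventually (hO.mem_nhds hy)
    filter_upwards [this] with y' hy'
    exact dd_comp hO l (hc.of_le (by exact_mod_cast le_top)) hy' j
  have h := dd_comp hO l hc' hy i
  rw [← h]
  unfold dd at hev ⊢
  rw [hev.fderiv_eq]

/-- coefficients: smooth on the half box gives `Cf` -/
theorem cf_of {z : E n} (hz : z 0 = 0) {r s : ℝ} (hs : s ≤ r) {g : E n → ℝ}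
    (hg : ContDiffOn ℝ ∞ g (Bx z r)) : Cf s (fun y => g (z + y)) := by
  refine ⟨fun y => g (z + y), ?_, fun _ _ => rfl⟩
  refine hg.comp (contDiff_const.add contDiff_id).contDiffOn ?_
  intro y hy
  exact mem_Bx hz hy.1 fun i => (hy.2 i).trans_le hs

theorem ell_of {L : LD n N} {z : E n} (hz : z 0 = 0) {r s : ℝ} (hs : s < r)
    (hL : L.Ok (Bx z r)) : Ell s (fun i j y => gg L.g i j (z + y)) := by
  have hR : RelOpen (Bx z r) := Bx_relOpen z r
  have hgg : ∀ j k, ContDiffOn ℝ ∞ (gg L.g j k) (Bx z r) := fun j k =>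
    hR.gg_smooth hL.g_smooth hL.g_pos j k
  refine ⟨fun i j => cf_of hz hs.le (hgg i j), ?_⟩
  set K : Set (E n) := {y | 0 ≤ y 0 ∧ ∀ i, |y i| ≤ s} with hKdef
  have hKc : IsClosed K := by
    have h : K = {y : E n | 0 ≤ y 0} ∩ ⋂ i, {y : E n | |y i| ≤ s} := by
      ext y
      simp [hKdef]
    rw [h]
    refine (isClosed_le continuous_const (continuous_coord 0)).inter (isClosed_iInter fun i => ?_)
    exact isClosed_le (continuous_coord i).abs continuous_const
  have hn : (0 : ℝ) < n := Nat.cast_pos.2 (Nat.pos_of_ne_zero (NeZero.ne n))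
  have hK : IsCompact K := by
    refine (isCompact_closedBall (0 : E n) ((|s| + 1) * (2 * n))).of_isClosed_subset hKc ?_
    intro y hy
    rw [Metric.mem_closedBall, dist_zero_right]
    refine (norm_lt_of_coord (by positivity) fun i => ?_).le
    rw [mul_div_assoc, div_self (by positivity), mul_one]
    exact (hy.2 i).trans ((le_abs_self s).trans (by linarith))
  have hmap : MapsTo (fun y => z + y) K (Bx z r) := fun y hy =>
    mem_Bx hz hy.1 fun i => (hy.2 i).trans_lt hs
  obtain ⟨l, hl, h⟩ := AICacc_ell hK (a := fun i j y => gg L.g i j (z + y))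
    (fun i j => (hgg i j).continuousOn.comp (continuous_const.add continuous_id).continuousOn hmap)
    (fun y hy => AHardy_gg_pos (hL.g_pos _ (hmap hy)))
  exact ⟨l, hl, fun y hy ξ => h y ⟨hy.1.le, fun i => (hy.2 i).le⟩ ξ⟩

/-! ### integrals -/

theorem emb_add (z : E n) : MeasurableEmbedding (fun y : E n => z + y) :=
  (MeasurableEquiv.addLeft z).measurableEmbedding

theorem int_shift {Ω S : Set (E n)} {z : E n} (hmap : MapsTo (fun y => z + y) S Ω)
    {g : E n → ℝ} (hg : IntegrableOn g Ω) : IntegrableOn (fun y => g (z + y)) S := by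
  have h : IntegrableOn (g ∘ fun y => z + y) ((fun y => z + y) ⁻¹' Ω) :=
    ((measurePreserving_add_left volume z).integrableOn_comp_preimage (emb_add z)).2 hg
  exact h.mono_set hmap

theorem lint_shift {Ω S : Set (E n)} {z : E n} (hmap : MapsTo (fun y => z + y) S Ω)
    (f : E n → ℝ≥0∞) : ∫⁻ y in S, f (z + y) ≤ ∫⁻ x in Ω, f x := by
  rw [← (measurePreserving_add_left volume z).setLIntegral_comp_preimage_emb (emb_add z) f Ω]
  exact lintegral_mono_set hmap

theorem memLp_shift {Ω S : Set (E n)} (hS : MeasurableSet S) {z : E n}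
    (hmap : MapsTo (fun y => z + y) S Ω) (l : Fib N →L[ℝ] ℝ) {g : E n → Fib N}
    (hg : ContinuousOn g Ω) (hg2 : IntegrableOn (fun x => ‖g x‖ ^ 2) Ω) :
    MemLp (fun y => l (g (z + y))) 2 (volume.restrict S) := by
  have hc : ContinuousOn (fun y => l (g (z + y))) S :=
    l.continuous.comp_continuousOn (hg.comp (continuous_const.add continuous_id).continuousOn hmap)
  have hm : AEStronglyMeasurable (fun y => l (g (z + y))) (volume.restrict S) :=
    hc.aestronglyMeasurable hS
  rw [memLp_two_iff_integrable_sq hm]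
  refine Integrable.mono' ((int_shift hmap hg2).const_mul (‖l‖ ^ 2)) (hm.pow 2)
    (Eventually.of_forall fun y => ?_)
  rw [Real.norm_eq_abs, abs_of_nonneg (sq_nonneg _), ← mul_pow, ← sq_abs, ← Real.norm_eq_abs]
  exact pow_le_pow_left₀ (norm_nonneg _) (l.le_opNorm _) 2

/-- the trace condition -/
theorem tr_shift {Ω S : Set (E n)} {z : E n}
    (hmap : MapsTo (fun y => z + y) S Ω) (l : Fib N →L[ℝ] ℝ) {g : E n → Fib N}
    {K C : ℝ} (hK : ‖l‖ ≤ K) {e : ℝ}
    (hg2 : IntegrableOn (fun x => ‖g x‖ ^ 2) Ω)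
    (h : ∫ x in Ω, ‖g x‖ ^ 2 ≤ C * e ^ 2) :
    ∫⁻ y in S, ENNReal.ofReal (l (g (z + y)) ^ 2) ≤
      (Real.toNNReal (K ^ 2 * max C 0)) * ENNReal.ofReal (e ^ 2) := by
  have hK0 : 0 ≤ K := (norm_nonneg _).trans hK
  calc ∫⁻ y in S, ENNReal.ofReal (l (g (z + y)) ^ 2)
      ≤ ∫⁻ y in S, ENNReal.ofReal (K ^ 2 * ‖g (z + y)‖ ^ 2) := by
        refine lintegral_mono fun y => ENNReal.ofReal_le_ofReal ?_
        rw [← mul_pow, ← sq_abs, ← Real.norm_eq_abs]
        refine pow_le_pow_left₀ (norm_nonneg _) ((l.le_opNorm _).trans ?_) 2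
        exact mul_le_mul_of_nonneg_right hK (norm_nonneg _)
    _ ≤ ∫⁻ x in Ω, ENNReal.ofReal (K ^ 2 * ‖g x‖ ^ 2) :=
        lint_shift hmap fun x => ENNReal.ofReal (K ^ 2 * ‖g x‖ ^ 2)
    _ = ENNReal.ofReal (∫ x in Ω, K ^ 2 * ‖g x‖ ^ 2) := by
        rw [ofReal_integral_eq_lintegral_ofReal (hg2.const_mul _)
          (Eventually.of_forall fun x => by positivity)]
    _ ≤ ENNReal.ofReal ((K ^ 2 * max C 0) * e ^ 2) := by
        refine ENNReal.ofReal_le_ofReal ?_
        rw [integral_const_mul, mul_assoc]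
        refine mul_le_mul_of_nonneg_left (h.trans ?_) (sq_nonneg _)
        exact mul_le_mul_of_nonneg_right (le_max_left _ _) (sq_nonneg _)
    _ = _ := by
        rw [ENNReal.ofReal_mul (mul_nonneg (sq_nonneg _) (le_max_right _ _))]
        rfl

/-! ### a continuous function with zero trace vanishes on the flat boundary -/

theorem vol_box (y : E n) {e ρ : ℝ} (he : 0 < e) (hρ : 0 < ρ) :
    volume {y' : E n | 0 < y' 0 ∧ y' 0 < e ∧ ∀ i, i ≠ 0 → |y' i - y i| < ρ} =
      ENNReal.ofReal (e * (2 * ρ) ^ (n - 1)) := by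
  set a : Fin n → ℝ := fun i => if i = 0 then 0 else y i - ρ with ha
  set b : Fin n → ℝ := fun i => if i = 0 then e else y i + ρ with hb
  have hset : {y' : E n | 0 < y' 0 ∧ y' 0 < e ∧ ∀ i, i ≠ 0 → |y' i - y i| < ρ} =
      (MeasurableEquiv.toLp 2 (Fin n → ℝ)).symm ⁻¹' (Set.pi univ fun i => Ioo (a i) (b i)) := by
    ext y'
    simp only [mem_ofPred_eq, mem_preimage, Set.mem_pi, mem_univ, true_implies, mem_Ioo]
    constructor
    · rintro ⟨h1, h2, h3⟩ i
      by_cases hi : i = 0
      · subst hi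
        simpa [ha, hb] using ⟨h1, h2⟩
      · have := abs_lt.1 (h3 i hi)
        simp only [ha, hb, hi, if_false]
        constructor
        · have h4 := this.1
          change y i - ρ < y' i
          linarith
        · have h4 := this.2
          change y' i < y i + ρ
          linarith
    · intro h
      have h0 := h 0
      simp only [ha, hb, if_true] at h0
      refine ⟨h0.1, h0.2, fun i hi => ?_⟩
      have h1 := h i
      simp only [ha, hb, hi, if_false] at h1
      have h2 : y i - ρ < y' i := h1.1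
      have h3 : y' i < y i + ρ := h1.2
      exact abs_lt.2 ⟨by linarith, by linarith⟩
  rw [hset, (EuclideanSpace.volume_preserving_symm_measurableEquiv_toLp (Fin n)).measure_preimage
    (MeasurableSet.univ_pi fun i => measurableSet_Ioo).nullMeasurableSet, volume_pi_pi]
  simp only [Real.volume_Ioo]
  have hprod : ∏ i, ENNReal.ofReal (b i - a i) = ENNReal.ofReal (∏ i, (b i - a i)) := by
    rw [ENNReal.ofReal_prod_of_nonneg]
    intro i _
    by_cases hi : i = 0
    · simp only [ha, hb, hi, if_true]; linarith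
    · simp only [ha, hb, hi, if_false]; linarith
  rw [hprod]
  congr 1
  rw [← Finset.mul_prod_erase Finset.univ _ (Finset.mem_univ (0 : Fin n))]
  have h1 : ∀ i ∈ Finset.univ.erase (0 : Fin n), b i - a i = 2 * ρ := by
    intro i hi
    have hi' := Finset.ne_of_mem_erase hi
    simp only [ha, hb, hi', if_false]
    ring
  rw [Finset.prod_congr rfl h1, Finset.prod_const, Finset.card_erase_of_mem (Finset.mem_univ _),
    Finset.card_univ, Fintype.card_fin]
  simp [ha, hb]

theorem zero_of_tr {s : ℝ} {g : E n → ℝ} (hg : ContinuousOn g (Hb (n := n) s)) {C : NNReal}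
    (h : ∀ e > 0, ∫⁻ y in Uh (n := n) s ∩ {y | y 0 < e}, ENNReal.ofReal (g y ^ 2) ≤
      C * ENNReal.ofReal (e ^ 2)) {y : E n} (hy : y ∈ Hb (n := n) s) (hy0 : y 0 = 0) : g y = 0 := by
  by_contra hne
  have hn : 0 < n := Nat.pos_of_ne_zero (NeZero.ne n)
  have hnr : (0 : ℝ) < n := Nat.cast_pos.2 hn
  set δ : ℝ := |g y| / 2 with hδ
  have hδ0 : 0 < δ := half_pos (abs_pos.2 hne)
  have h1 : ∀ᶠ y' in 𝓝[Hb (n := n) s] y, δ < |g y'| := by
    have : Tendsto (fun y' => |g y'|) (𝓝[Hb (n := n) s] y) (𝓝 |g y|) := (hg y hy).abs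
    exact this.eventually (lt_mem_nhds (by rw [hδ]; linarith [abs_pos.2 hne]))
  have h2 : ∀ᶠ y' in 𝓝 y, ∀ i : Fin n, |y' i| < s :=
    eventually_all.2 fun i => ((continuous_coord i).abs.continuousAt).eventually
      (gt_mem_nhds (hy.2 i))
  obtain ⟨V, hV, hVo, hyV⟩ := eventually_nhds_iff.1 (eventually_nhdsWithin_iff.1 h1 |>.and h2)
  obtain ⟨ρ₁, hρ₁, hball⟩ := Metric.isOpen_iff.1 hVo y hyV
  set ρ : ℝ := ρ₁ / (2 * n) with hρdef
  have hρ : 0 < ρ := by positivity
  -- the inequality for small `e`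
  have key : ∀ e, 0 < e → e ≤ ρ → δ ^ 2 * (2 * ρ) ^ (n - 1) ≤ C * e := by
    intro e he heρ
    set S : Set (E n) := {y' : E n | 0 < y' 0 ∧ y' 0 < e ∧ ∀ i, i ≠ 0 → |y' i - y i| < ρ} with hS
    have hSV : ∀ y' ∈ S, y' ∈ V := by
      intro y' hy'
      refine hball ?_
      rw [Metric.mem_ball, dist_eq_norm]
      refine norm_lt_of_coord hρ₁ fun i => ?_
      by_cases hi : i = 0
      · subst hi
        rw [PiLp.sub_apply, hy0, sub_zero, abs_of_pos hy'.1]
        exact hy'.2.1.le.trans heρ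
      · rw [PiLp.sub_apply]
        exact (hy'.2.2 i hi).le
    have hSU : S ⊆ Uh (n := n) s ∩ {y | y 0 < e} := by
      intro y' hy'
      exact ⟨⟨hy'.1, (hV y' (hSV y' hy')).2⟩, hy'.2.1⟩
    have hSm : MeasurableSet S := by
      have : IsOpen S := by
        have hS' : S = {y' : E n | 0 < y' 0} ∩ {y' : E n | y' 0 < e} ∩
            ⋂ i, {y' : E n | i ≠ 0 → |y' i - y i| < ρ} := by
          ext y'
          simp [hS, and_assoc]
        rw [hS']
        refine ((isOpen_lt continuous_const (continuous_coord 0)).inter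
          (isOpen_lt (continuous_coord 0) continuous_const)).inter
          (isOpen_iInter_of_finite fun i => ?_)
        by_cases hi : i = 0
        · simp [hi]
        · have : {y' : E n | i ≠ 0 → |y' i - y i| < ρ} = {y' : E n | |y' i - y i| < ρ} := by
            ext y'; simp [hi]
          rw [this]
          exact isOpen_lt ((continuous_coord i).sub continuous_const).abs continuous_const
      exact this.measurableSet
    have h3 : ENNReal.ofReal (δ ^ 2) * volume S ≤ C * ENNReal.ofReal (e ^ 2) := by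
      calc ENNReal.ofReal (δ ^ 2) * volume S = ∫⁻ _ in S, ENNReal.ofReal (δ ^ 2) := by
            rw [setLIntegral_const]
        _ ≤ ∫⁻ y' in S, ENNReal.ofReal (g y' ^ 2) := by
            refine setLIntegral_mono' hSm fun y' hy' => ENNReal.ofReal_le_ofReal ?_
            have h4 := (hV y' (hSV y' hy')).1 ⟨hy'.1.le, (hV y' (hSV y' hy')).2⟩
            rw [← sq_abs (g y')]
            exact pow_le_pow_left₀ hδ0.le h4.le 2
        _ ≤ ∫⁻ y' in Uh (n := n) s ∩ {y | y 0 < e}, ENNReal.ofReal (g y' ^ 2) := lintegral_mono_set hSU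
        _ ≤ _ := h e he
    rw [vol_box y he hρ, ← ENNReal.ofReal_mul (sq_nonneg _),
      show ((C : NNReal) : ℝ≥0∞) = ENNReal.ofReal (C : ℝ) from (ENNReal.ofReal_coe_nnreal).symm,
      ← ENNReal.ofReal_mul (NNReal.coe_nonneg C), ENNReal.ofReal_le_ofReal_iff (by positivity)] at h3
    have h5 : e * (δ ^ 2 * (2 * ρ) ^ (n - 1)) ≤ e * (C * e) := by nlinarith
    exact le_of_mul_le_mul_left h5 he
  have hP : 0 < δ ^ 2 * (2 * ρ) ^ (n - 1) := by positivity
  set P : ℝ := δ ^ 2 * (2 * ρ) ^ (n - 1) with hPdef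
  have hC0 : (0 : ℝ) ≤ C := C.2
  have he0 : 0 < min ρ (P / (2 * (C + 1))) := lt_min hρ (by positivity)
  have h6 := key _ he0 (min_le_left _ _)
  have h7 : (C : ℝ) * min ρ (P / (2 * (C + 1))) ≤ C * (P / (2 * (C + 1))) :=
    mul_le_mul_of_nonneg_left (min_le_right _ _) hC0
  have h8 : (C : ℝ) * (P / (2 * (C + 1))) ≤ P / 2 := by
    rw [mul_div_assoc', div_le_div_iff₀ (by positivity) (by norm_num)]
    nlinarith
  linarith

/-! ### the theorem -/

/-- smoothness up to the boundary -/
theorem rowBDRY_of (hReg : ∀ (n : ℕ) [NeZero n] (ι : Type) [Fintype ι] (r : ℝ)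
    (a : Fin n → Fin n → E n → ℝ) (W : ι → E n → ℝ), Ell r a → Cl r a W →
    ∀ r', 0 < r' → r' < r → ∀ α, Cf r' (W α)) : RowBDRY := by
  intro n N _ L z r r' hz hr' hrr hL c g hc hLc hg hint htr
  obtain ⟨C, hC⟩ := htr
  set s : ℝ := (r + r') / 2 with hs
  have hs1 : s < r := by rw [hs]; linarith
  have hs2 : r' < s := by rw [hs]; linarith
  have hs0 : 0 < s := hr'.trans hs2
  have hR := Bx_relOpen z r
  have hO := Bo_open z r
  have hOs := Bo_sub_Bx z r
  have hOH : Bo z r ⊆ Hs n := fun x hx => hx.2.le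
  have hOR : RelOpen (Bo z r) := SLop_rel hO hOH
  set d : E n → Fib N := fun x => c x - g x with hd
  have hgO : ContDiffOn ℝ ∞ g (Bo z r) := hg.mono hOs
  have hdO : ContDiffOn ℝ ∞ d (Bo z r) := hc.sub hgO
  obtain ⟨M, M0, hM, hM0, hexp⟩ := as_lop' hR hL
  have hLg : ContDiffOn ℝ ∞ (Lop L g) (Bx z r) := CHarm_Lop_smooth hR hL hg
  have heq : ∀ x ∈ Bo z r, Pop (gg L.g) M M0 d x = - Lop L g x := by
    intro x hx
    rw [← hexp d (Bo z r) hO hOs (hdO.of_le (by norm_cast)) x hx,
      CNear_Lop_sub hOR (CNear_ok_mono hL hOs) hc hgO hx, hLc x hx, zero_sub]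
  -- real coordinates
  set b := Module.finBasis ℝ (Fib N) with hb
  set l : Fin (Module.finrank ℝ (Fib N)) → (Fib N →L[ℝ] ℝ) :=
    fun α => LinearMap.toContinuousLinearMap (b.coord α) with hl
  have hsum : ∀ v : Fib N, ∑ α, l α v • b α = v := fun v => b.sum_repr v
  set W : Fin (Module.finrank ℝ (Fib N)) → E n → ℝ := fun α y => l α (d (z + y)) with hW
  set K : ℝ := ∑ α, ‖l α‖ with hK
  have hKl : ∀ α, ‖l α‖ ≤ K := fun α =>
    Finset.single_le_sum (f := fun α => ‖l α‖) (fun _ _ => norm_nonneg _) (Finset.mem_univ α)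
  have hmapU : MapsTo (fun y => z + y) (Uh (n := n) s) (Bo z r) := fun y hy =>
    mem_Bo hz hy.1 fun i => (hy.2 i).trans hs1
  have hUm : MeasurableSet (Uh (n := n) s) := (isOpen_U s).measurableSet
  -- integrability
  have hmd : AEStronglyMeasurable d (volume.restrict (Bo z r)) :=
    hdO.continuousOn.aestronglyMeasurable hO.measurableSet
  have hdc : ∀ j, ContinuousOn (fun x => fderiv ℝ d x (ev j)) (Bo z r) := fun j =>
    ((hdO.fderiv_of_isOpen hO (m := ∞) (by simp)).clm_apply contDiffOn_const).continuousOn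
  have hpd : ∀ j, ∀ x ∈ Bo z r, pd j d x = fderiv ℝ d x (ev j) := fun j x hx =>
    SLop_pd hO hOH hx d j
  have hi2 : IntegrableOn (fun x => ‖d x‖ ^ 2) (Bo z r) := by
    refine Integrable.mono' hint (hmd.norm.pow 2) (Eventually.of_forall fun x => ?_)
    rw [Real.norm_eq_abs, abs_of_nonneg (sq_nonneg _)]
    have : 0 ≤ ∑ j, ‖pd j (fun y => c y - g y) x‖ ^ 2 :=
      Finset.sum_nonneg fun j _ => sq_nonneg _
    linarith
  have hi3 : ∀ j, IntegrableOn (fun x => ‖fderiv ℝ d x (ev j)‖ ^ 2) (Bo z r) := by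
    intro j
    have hm : AEStronglyMeasurable (fun x => ‖fderiv ℝ d x (ev j)‖ ^ 2)
        (volume.restrict (Bo z r)) :=
      ((hdc j).norm.pow 2).aestronglyMeasurable hO.measurableSet
    refine Integrable.mono' hint hm ?_
    rw [ae_restrict_iff' hO.measurableSet]
    refine Eventually.of_forall fun x hx => ?_
    rw [Real.norm_eq_abs, abs_of_nonneg (sq_nonneg _), ← hpd j x hx]
    have h1 : ‖pd j d x‖ ^ 2 ≤ ∑ j, ‖pd j d x‖ ^ 2 :=
      Finset.single_le_sum (f := fun j => ‖pd j d x‖ ^ 2) (fun _ _ => sq_nonneg _)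
        (Finset.mem_univ j)
    have h2 : 0 ≤ ‖d x‖ ^ 2 := sq_nonneg _
    linarith
  have hdd : ∀ i α, ∀ y ∈ Uh (n := n) s, dd i (W α) y = l α (fderiv ℝ d (z + y) (ev i)) := fun i α y hy =>
    dd_comp hO (l α) (hdO.of_le (by exact_mod_cast le_top)) (hmapU hy) i
  have hdd2 : ∀ i j α, ∀ y ∈ Uh (n := n) s, dd i (dd j (W α)) y =
      l α (fderiv ℝ (fun x => fderiv ℝ d x (ev j)) (z + y) (ev i)) := fun i j α y hy =>
    dd_dd_comp hO (l α) hdO (hmapU hy) i j
  have hCl : Cl s (fun i j y => gg L.g i j (z + y)) W := by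
    refine ⟨fun α => ?_, fun α => ?_, fun i α => ?_, ?_, ?_⟩
    · exact (l α).contDiff.comp_contDiffOn
        (hdO.comp (contDiff_const.add contDiff_id).contDiffOn hmapU)
    · exact memLp_shift hUm hmapU (l α) hdO.continuousOn hi2
    · have h1 := memLp_shift hUm hmapU (l α) (hdc i) (hi3 i)
      refine (memLp_congr_ae ?_).2 h1
      rw [Filter.EventuallyEq, ae_restrict_iff' hUm]
      exact Eventually.of_forall fun y hy => hdd i α y hy
    · refine ⟨Real.toNNReal (K ^ 2 * max C 0), fun α e he => ?_⟩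
      have hmap' : MapsTo (fun y => z + y) (Uh (n := n) s ∩ {y | y 0 < e}) (Bo z r ∩ {x | x 0 < e}) := by
        intro y hy
        refine ⟨hmapU hy.1, ?_⟩
        change (z + y) 0 < e
        rw [PiLp.add_apply, hz, zero_add]
        exact hy.2
      exact tr_shift hmap' (l α) (hKl α) (hi2.mono_set inter_subset_left) (hC e he)
    · refine ⟨fun α β i y => - l α (M i (z + y) (b β)), fun α β y => - l α (M0 (z + y) (b β)),
        fun α y => - l α (Lop L g (z + y)), ?_, ?_, ?_, ?_⟩
      · intro α β i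
        refine cf_of hz hs1.le (g := fun x => - l α (M i x (b β))) ?_
        exact ((l α).contDiff.comp_contDiffOn (smooth_eval (hM i) contDiffOn_const)).neg
      · intro α β
        refine cf_of hz hs1.le (g := fun x => - l α (M0 x (b β))) ?_
        exact ((l α).contDiff.comp_contDiffOn (smooth_eval hM0 contDiffOn_const)).neg
      · intro α
        refine cf_of hz hs1.le (g := fun x => - l α (Lop L g x)) ?_
        exact ((l α).contDiff.comp_contDiffOn hLg).neg
      · intro α y hy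
        have h0 := heq (z + y) (hmapU hy)
        have h1 := congrArg (l α) h0
        unfold Pop at h1
        rw [map_add, map_add, map_neg] at h1
        have e1 : l α (∑ i, ∑ j, gg L.g i j (z + y) •
            fderiv ℝ (fun x => fderiv ℝ d x (ev j)) (z + y) (ev i)) =
            ∑ i, ∑ j, gg L.g i j (z + y) * dd i (dd j (W α)) y := by
          rw [map_sum]
          refine Finset.sum_congr rfl fun i _ => ?_
          rw [map_sum]
          refine Finset.sum_congr rfl fun j _ => ?_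
          rw [map_smul, smul_eq_mul, hdd2 i j α y hy]
        have hop : ∀ (T : EndF N) (v : Fib N), l α (T v) = ∑ β, l α (T (b β)) * l β v := by
          intro T v
          conv_lhs => rw [← hsum v]
          rw [map_sum, map_sum]
          refine Finset.sum_congr rfl fun β _ => ?_
          rw [ContinuousLinearMap.map_smul_of_tower, map_smul, smul_eq_mul]
          ring
        have e2 : l α (∑ j, M j (z + y) (fderiv ℝ d (z + y) (ev j))) =
            ∑ j, ∑ β, l α (M j (z + y) (b β)) * dd j (W β) y := by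
          rw [map_sum]
          refine Finset.sum_congr rfl fun j _ => ?_
          rw [hop]
          refine Finset.sum_congr rfl fun β _ => ?_
          rw [hdd j β y hy]
        have e3 : l α (M0 (z + y) (d (z + y))) = ∑ β, l α (M0 (z + y) (b β)) * W β y :=
          hop _ _
        rw [e1, e2, e3] at h1
        simp only [neg_mul, Finset.sum_neg_distrib]
        linarith
  have hex : ∀ α, Cf r' (W α) := fun α =>
    hReg n (Fin (Module.finrank ℝ (Fib N))) s _ W (ell_of hz hs1 hL) hCl r' hr' hs2 α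
  choose G hG hGW using hex
  obtain ⟨CC, hCC⟩ := hCl.tr
  have hzero : ∀ α, ∀ y ∈ Hb (n := n) r', y 0 = 0 → G α y = 0 := by
    intro α y hy hy0
    refine zero_of_tr (hG α).continuousOn (C := CC) (fun e he => ?_) hy hy0
    have hUU : Uh (n := n) r' ∩ {y | y 0 < e} ⊆ Uh (n := n) s ∩ {y | y 0 < e} := fun y' hy' =>
      ⟨⟨hy'.1.1, fun i => (hy'.1.2 i).trans hs2⟩, hy'.2⟩
    calc ∫⁻ y in Uh (n := n) r' ∩ {y | y 0 < e}, ENNReal.ofReal (G α y ^ 2)
        = ∫⁻ y in Uh (n := n) r' ∩ {y | y 0 < e}, ENNReal.ofReal (W α y ^ 2) := by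
          refine setLIntegral_congr_fun ?_ fun y' hy' => ?_
          · exact (isOpen_U r').measurableSet.inter
              (isOpen_lt (continuous_coord 0) continuous_const).measurableSet
          · change ENNReal.ofReal (G α y' ^ 2) = ENNReal.ofReal (W α y' ^ 2)
            rw [hGW α hy'.1]
      _ ≤ ∫⁻ y in Uh (n := n) s ∩ {y | y 0 < e}, ENNReal.ofReal (W α y ^ 2) := lintegral_mono_set hUU
      _ ≤ _ := hCC α e he
  refine ⟨fun x => g x + ∑ α, G α (x - z) • b α, ?_, ?_, ?_⟩
  · have hsub : Bx z r' ⊆ Bx z r := fun x hx => ⟨fun i => (hx.1 i).trans hrr, hx.2⟩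
    refine (hg.mono hsub).add (ContDiffOn.sum fun α _ => ?_)
    have h2 : ContDiffOn ℝ ∞ (fun x => G α (x - z)) (Bx z r') := by
      refine (hG α).comp (contDiff_id.sub contDiff_const).contDiffOn ?_
      intro x hx
      refine ⟨?_, fun i => ?_⟩
      · change 0 ≤ (x - z) 0
        rw [PiLp.sub_apply, hz, sub_zero]
        exact hx.2
      · change |(x - z) i| < r'
        rw [PiLp.sub_apply]
        exact hx.1 i
    exact h2.smul contDiffOn_const
  · intro x hx
    have hxU : x - z ∈ Uh (n := n) r' := by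
      refine ⟨?_, fun i => ?_⟩
      · change 0 < (x - z) 0
        rw [PiLp.sub_apply, hz, sub_zero]
        exact hx.2
      · change |(x - z) i| < r'
        rw [PiLp.sub_apply]
        exact hx.1 i
    have h1 : ∑ α, G α (x - z) • b α = d x := by
      rw [← hsum (d x)]
      refine Finset.sum_congr rfl fun α _ => ?_
      rw [← hGW α hxU]
      simp only [hW, add_sub_cancel]
    change g x + ∑ α, G α (x - z) • b α = c x
    rw [h1]
    simp [hd]
  · intro x hx hx0
    have h1 : ∑ α, G α (x - z) • b α = 0 := by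
      refine Finset.sum_eq_zero fun α _ => ?_
      rw [hzero α (x - z) ?_ ?_, zero_smul]
      · refine ⟨?_, fun i => ?_⟩
        · change 0 ≤ (x - z) 0
          rw [PiLp.sub_apply, hz, sub_zero]
          exact hx.2
        · change |(x - z) i| < r'
          rw [PiLp.sub_apply]
          exact hx.1 i
      · change (x - z) 0 = 0
        rw [PiLp.sub_apply, hz, hx0, sub_zero]
    change g x + ∑ α, G α (x - z) • b α = g x
    rw [h1, add_zero]

end Vale.Agent.P088.DM.H404
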