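import Vale.Agent.P088.R2.H404.DM.J1
import Vale.Agent.P088.R2.H856.DM.Reg

/-!
# P088, Dirichlet problem: smoothness up to the boundary from row 6
-/

namespace Vale.Agent.P088.DM.H404

/-- The row `RowBDRY`, from row 6. -/
theorem rowBDRY_of6 (h6 : ∀ (n : ℕ) [NeZero n], Vale.Agent.P088.R2.H856.DM.Loc.Row6 n) : RowBDRY :=
  rowBDRY_of fun n _ ι _ r a W hE hC r' h0 hr α =>
    Vale.Agent.P088.R2.H856.DM.Loc.reg_of_row6 (h6 n) ι r a W (h0.trans hr) hE hC r' h0 hr α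

end Vale.Agent.P088.DM.H404
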