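import Vale.Agent.P088.Bdl.B10

/-!
# P088, Dirichlet problem: the operator in coordinates, coefficients smooth up to the boundary
-/

open MeasureTheory Set Filter Topology
open scoped ContDiff

noncomputable section

namespace Vale.Agent.P088.DM.H404

open Vale.Agent.P088.EYM Vale.Agent.P088.EYM.ES

variable {n N : ℕ} [NeZero n]

/-- `Lop` as an operator with coefficients smooth up to the boundary -/
theorem as_lop' {L : LD n N} {D : Set (E n)} (hR : RelOpen D) (hL : L.Ok D) :
    ∃ (M : Fin n → E n → EndF N) (M0 : E n → EndF N), (∀ j, ContDiffOn ℝ ∞ (M j) D) ∧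
      ContDiffOn ℝ ∞ M0 D ∧ ∀ (v : E n → Fib N) (V : Set (E n)), IsOpen V → V ⊆ D →
        ContDiffOn ℝ 2 v V → ∀ x ∈ V, Lop L v x = Pop (gg L.g) M M0 v x := by
  have hgg : ∀ j k, ContDiffOn ℝ ∞ (gg L.g j k) D := fun j k =>
    hR.gg_smooth hL.g_smooth hL.g_pos j k
  have hdg : ∀ i j k, ContDiffOn ℝ ∞ (pd i (gg L.g j k)) D := fun i j k =>
    hR.pd_smooth (hgg j k) i
  have hdB : ∀ i j, ContDiffOn ℝ ∞ (pd i (L.B j)) D := fun i j => hR.pd_smooth (hL.B_smooth j) i
  refine ⟨fun k x => ∑ j, (pd j (gg L.g j k) x • (1 : EndF N) + gg L.g k j x • L.B j x +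
      gg L.g j k x • L.B j x),
    fun x => ∑ j, ∑ k, (gg L.g j k x • pd j (L.B k) x + pd j (gg L.g j k) x • L.B k x +
      gg L.g j k x • (L.B j x * L.B k x)), ?_, ?_, ?_⟩
  · intro k
    refine ContDiffOn.sum fun j _ => ?_
    exact (((hdg j j k).smul contDiffOn_const).add ((hgg k j).smul (hL.B_smooth j))).add
      ((hgg j k).smul (hL.B_smooth j))
  · refine ContDiffOn.sum fun j _ => ContDiffOn.sum fun k _ => ?_
    exact (((hgg j k).smul (hdB j k)).add ((hdg j j k).smul (hL.B_smooth k))).add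
      ((hgg j k).smul (smooth_mul (hL.B_smooth j) (hL.B_smooth k)))
  · intro v V hVo hVD hv2 x hxV
    have hDH : D ⊆ Hs n := hR.subset
    have hVR : RelOpen V := SLop_rel hVo (hVD.trans hDH)
    have hv1 : ContDiffOn ℝ 1 v V := hv2.of_le (by norm_num)
    have hpv : ∀ k, ContDiffOn ℝ 1 (pd k v) V := fun k =>
      SLop_pd_smooth hVR hv2 (by norm_num) k
    have hBv : ∀ k, ContDiffOn ℝ 1 (fun y => L.B k y (v y)) V := fun k =>
      smooth_eval (((hL.B_smooth k).mono hVD).of_le (by exact_mod_cast le_top)) hv1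
    have hnab : ∀ k, ContDiffOn ℝ 1 (fun y => pd k v y + L.B k y (v y)) V := fun k =>
      (hpv k).add (hBv k)
    have hgV : ∀ j k, ContDiffOn ℝ 1 (gg L.g j k) V := fun j k =>
      ((hgg j k).mono hVD).of_le (by exact_mod_cast le_top)
    have e1 : ∀ j, pd j (flux L j v) x = ∑ k, (gg L.g j k x • (pd j (pd k v) x +
        (L.B k x (pd j v x) + pd j (L.B k) x (v x))) +
        pd j (gg L.g j k) x • (pd k v x + L.B k x (v x))) := by
      intro j
      have h3 : pd j (flux L j v) x =
        pd j (fun y => ∑ k, gg L.g j k y • (pd k v y + L.B k y (v y))) x := rfl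
      rw [h3, SLop_pd_sum hVR Finset.univ one_ne_zero
        (f := fun k y => gg L.g j k y • (pd k v y + L.B k y (v y)))
        (fun k _ => (hgV j k).smul (hnab k)) hxV j]
      refine Finset.sum_congr rfl fun k _ => ?_
      rw [SLop_pd_smul hVR one_ne_zero one_ne_zero (hgV j k) (hnab k) hxV j]
      congr 2
      have h4 : pd j (fun y => pd k v y + L.B k y (v y)) x =
          pd j (pd k v) x + pd j (fun y => L.B k y (v y)) x :=
        pd_of_has (hVR.subset hxV) ((hVR.hasD hxV (hpv k) one_ne_zero).add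
          (hVR.hasD hxV (hBv k) one_ne_zero)) j
      rw [h4, hVR.pd_eval (hL.B_smooth k |>.mono hVD) hv1 (by simp) one_ne_zero hxV j]
    have e2 : ∀ j k, fderiv ℝ (fun y => fderiv ℝ v y (ev k)) x (ev j) = pd j (pd k v) x := by
      intro j k
      rw [← SLop_pd hVo (hVD.trans hDH) hxV]
      exact hVR.pd_congr (fun y hy => (SLop_pd hVo (hVD.trans hDH) hy v k).symm) hxV j
    have e3 : ∀ j, fderiv ℝ v x (ev j) = pd j v x := fun j =>
      (SLop_pd hVo (hVD.trans hDH) hxV v j).symm
    have e4 : ∀ j, L.B j x (flux L j v x) = ∑ k, gg L.g j k x • (L.B j x (pd k v x) +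
        L.B j x (L.B k x (v x))) := by
      intro j
      unfold flux nab
      rw [map_sum]
      refine Finset.sum_congr rfl fun k _ => ?_
      rw [ContinuousLinearMap.map_smul_of_tower, map_add]
    unfold Lop Pop
    simp only [e1, e2, e3, e4]
    exact SLop_alg (fun j k => gg L.g j k x) (fun j k => pd j (gg L.g j k) x)
      (fun j k => pd j (pd k v) x) (fun k => pd k v x) (fun k => L.B k x)
      (fun j k => pd j (L.B k) x) (v x)

end Vale.Agent.P088.DM.H404
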